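import Vale.Agent.P323.H436.Chart

/-!
# The amalgams of a chart (helper80)

From a chart `C : Chart D i`: `C.am`, `C.jl`, `C.jr` and the statements `K0`, `K1`, `K2` of the
class `Tw` at stage `i`.
-/

namespace Vale.Agent.P323.Z

open CategoryTheory

universe v u

section transport

variable {E : Type u} [Category.{v} E]

/-- transport of a pullback square along isomorphisms -/
theorem IsPB.conj {z x y b z' x' y' b' : E} {p : z ⟶ x} {q : z ⟶ y} {f : x ⟶ b} {g : y ⟶ b}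
    (h : IsPB p q f g) (ez : z ≅ z') (ex : x ≅ x') (ey : y ≅ y') (eb : b ≅ b')
    {p' : z' ⟶ x'} {q' : z' ⟶ y'} {f' : x' ⟶ b'} {g' : y' ⟶ b'}
    (hp : ez.hom ≫ p' = p ≫ ex.hom) (hq : ez.hom ≫ q' = q ≫ ey.hom)
    (hf : ex.hom ≫ f' = f ≫ eb.hom) (hg : ey.hom ≫ g' = g ≫ eb.hom) : IsPB p' q' f' g' := by
  constructor
  · rw [← cancel_epi ez.hom, reassoc_of% hp, reassoc_of% hq, hf, hg, reassoc_of% h.1]
  · intro e u v huv
    obtain ⟨w, hw1, hw2⟩ := h.2 (u ≫ ex.inv) (v ≫ ey.inv) (by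
      rw [← cancel_mono eb.hom]
      simp only [Category.assoc]
      rw [← hf, ← hg]
      simpa using huv)
    refine ⟨w ≫ ez.hom, ?_, ?_⟩
    · rw [Category.assoc, hp, reassoc_of% hw1]
      simp
    · rw [Category.assoc, hq, reassoc_of% hw2]
      simp

end transport

namespace Chart

variable {D : Type 1} [Category.{1} D] [TwBase D] {i : Ordinal.{0}} (C : Chart D i)

/-- a typed object over an object of stage `i` -/
noncomputable def so (X : D) (h : Mem i (𝟙 X)) : C.S := (C.G_obj X h).choose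

theorem so_eq (X : D) (h : Mem i (𝟙 X)) : C.F.obj (C.st.Φ.obj (C.so X h)) = X :=
  (C.G_obj X h).choose_spec

/-- the identification -/
noncomputable def se (X : D) (h : Mem i (𝟙 X)) : C.F.obj (C.st.Φ.obj (C.so X h)) ≅ X :=
  eqToIso (C.so_eq X h)

theorem mem_eqToHom {X Y : D} (h : X = Y) (hY : Mem i (𝟙 Y)) : Mem i (eqToHom h) := by
  subst h
  exact hY

theorem mem_se_hom (X : D) (h : Mem i (𝟙 X)) : Mem i (C.se X h).hom :=
  mem_eqToHom (C.so_eq X h) h

theorem mem_se_inv (X : D) (h : Mem i (𝟙 X)) : Mem i (C.se X h).inv := by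
  have h1 : (C.se X h).inv ≫ (C.se X h).hom = 𝟙 X := Iso.inv_hom_id _
  exact TwBase.mem_div (g := (C.se X h).hom) (by rw [h1]; exact h) (C.mem_se_hom X h)

theorem exists_sm {X Y : D} (f : X ⟶ Y) (hf : Mem i f) :
    ∃ f' : C.so X (TwBase.mem_src hf) ⟶ C.so Y (TwBase.mem_tgt hf),
      C.F.map (C.st.Φ.map f') = (C.se X (TwBase.mem_src hf)).hom ≫ f ≫
        (C.se Y (TwBase.mem_tgt hf)).inv :=
  C.G_full _ (TwBase.mem_comp (C.mem_se_hom _ _) (TwBase.mem_comp hf (C.mem_se_inv _ _)))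

/-- a typed morphism over a morphism of stage `i` -/
noncomputable def sm {X Y : D} (f : X ⟶ Y) (hf : Mem i f) :
    C.so X (TwBase.mem_src hf) ⟶ C.so Y (TwBase.mem_tgt hf) := (C.exists_sm f hf).choose

theorem sm_spec {X Y : D} (f : X ⟶ Y) (hf : Mem i f) :
    C.F.map (C.st.Φ.map (C.sm f hf)) ≫ (C.se Y (TwBase.mem_tgt hf)).hom =
      (C.se X (TwBase.mem_src hf)).hom ≫ f := by
  have h := (C.exists_sm f hf).choose_spec
  rw [sm, h]
  simp

theorem sm_spec' {X Y : D} (f : X ⟶ Y) (hf : Mem i f) :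
    (C.se X (TwBase.mem_src hf)).inv ≫ C.F.map (C.st.Φ.map (C.sm f hf)) =
      f ≫ (C.se Y (TwBase.mem_tgt hf)).inv := by
  rw [← cancel_mono (C.se Y (TwBase.mem_tgt hf)).hom, Category.assoc, C.sm_spec]
  simp

/-- pullback squares of stage `i` are typed pullback squares -/
theorem G_pb_refl {z x y b : C.S} {p : z ⟶ x} {q : z ⟶ y} {f : x ⟶ b} {g : y ⟶ b}
    (h : IsPB (C.F.map (C.st.Φ.map p)) (C.F.map (C.st.Φ.map q))
      (C.F.map (C.st.Φ.map f)) (C.F.map (C.st.Φ.map g))) : IsPB p q f g := by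
  constructor
  · apply C.G_faith
    simpa only [Functor.map_comp] using h.1
  · intro e u v huv
    obtain ⟨w, hw1, hw2⟩ := h.2 (C.F.map (C.st.Φ.map u)) (C.F.map (C.st.Φ.map v)) (by
      simp only [← Functor.map_comp, huv])
    have hw : Mem i w := TwBase.mem_div (g := C.F.map (C.st.Φ.map p))
      (by rw [hw1]; exact C.G_mem u) (C.G_mem p)
    obtain ⟨w', rfl⟩ := C.G_full w hw
    refine ⟨w', C.G_faith ?_, C.G_faith ?_⟩
    · simpa only [Functor.map_comp] using hw1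
    · simpa only [Functor.map_comp] using hw2

theorem sm_pb {z x y b : D} {p : z ⟶ x} {q : z ⟶ y} {f : x ⟶ b} {g : y ⟶ b}
    (h : IsPB p q f g) (hp : Mem i p) (hq : Mem i q) (hf : Mem i f) (hg : Mem i g) :
    IsPB (C.sm p hp) (C.sm q hq) (C.sm f hf) (C.sm g hg) := by
  apply C.G_pb_refl
  exact h.conj (C.se z (TwBase.mem_src hp)).symm (C.se x (TwBase.mem_tgt hp)).symm
    (C.se y (TwBase.mem_tgt hq)).symm (C.se b (TwBase.mem_tgt hf)).symm
    (C.sm_spec' p hp) (C.sm_spec' q hq) (C.sm_spec' f hf) (C.sm_spec' g hg)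

section am

variable {z x y : D} (l : z ⟶ x) (r : z ⟶ y) (hl : Mem i l) (hr : Mem i r)

/-- the amalgam -/
noncomputable def am : D := C.F.obj (C.st.am (C.sm l hl) (C.sm r hr))

/-- the left leg -/
noncomputable def jl : x ⟶ C.am l r hl hr :=
  (C.se x (TwBase.mem_tgt hl)).inv ≫ C.F.map (C.st.jl (C.sm l hl) (C.sm r hr))

/-- the right leg -/
noncomputable def jr : y ⟶ C.am l r hl hr :=
  (C.se y (TwBase.mem_tgt hr)).inv ≫ C.F.map (C.st.jr (C.sm l hl) (C.sm r hr))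

theorem K1 : IsPB l r (C.jl l r hl hr) (C.jr l r hl hr) :=
  (C.F_pb (C.st.K1 (C.sm l hl) (C.sm r hr))).conj (C.se z (TwBase.mem_src hl))
    (C.se x (TwBase.mem_tgt hl)) (C.se y (TwBase.mem_tgt hr)) (Iso.refl _)
    (C.sm_spec l hl).symm (C.sm_spec r hr).symm (by simp [jl]) (by simp [jr])

theorem K0 : l ≫ C.jl l r hl hr = r ≫ C.jr l r hl hr := (C.K1 l r hl hr).1

theorem mem_jl : Mem (i + 1) (C.jl l r hl hr) :=
  TwBase.mem_comp (TwBase.mem_mono (le_add_of_nonneg_right zero_le_one) (C.mem_se_inv _ _))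
    (C.F_mem _)

theorem mem_jr : Mem (i + 1) (C.jr l r hl hr) :=
  TwBase.mem_comp (TwBase.mem_mono (le_add_of_nonneg_right zero_le_one) (C.mem_se_inv _ _))
    (C.F_mem _)

end am

theorem K2 {z x y z' x' y' : D} (l : z ⟶ x) (r : z ⟶ y) (l' : z' ⟶ x')
    (r' : z' ⟶ y') (hl : Mem i l) (hr : Mem i r) (hl' : Mem i l') (hr' : Mem i r')
    (p : x' ⟶ x) (m : z' ⟶ z) (q : y' ⟶ y) (hp : Mem i p) (hm : Mem i m) (hq : Mem i q)
    (h1 : IsPB l' m p l) (h2 : IsPB r' m q r) :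
    ∃ φ : C.am l' r' hl' hr' ⟶ C.am l r hl hr,
      IsPB (C.jl l' r' hl' hr') p φ (C.jl l r hl hr) ∧
      IsPB (C.jr l' r' hl' hr') q φ (C.jr l r hl hr) := by
  obtain ⟨φ, hφ1, hφ2⟩ := C.st.K2 (C.sm l hl) (C.sm r hr) (C.sm l' hl') (C.sm r' hr')
    (C.sm p hp) (C.sm m hm) (C.sm q hq) (C.sm_pb h1 hl' hm hp hl) (C.sm_pb h2 hr' hm hq hr)
  refine ⟨C.F.map φ, ?_, ?_⟩
  · exact (C.F_pb hφ1).conj (C.se x' (TwBase.mem_tgt hl')) (Iso.refl _)
      (C.se x (TwBase.mem_tgt hl)) (Iso.refl _) (by simp [jl]) (C.sm_spec p hp).symm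
      (by simp) (by simp [jl])
  · exact (C.F_pb hφ2).conj (C.se y' (TwBase.mem_tgt hr')) (Iso.refl _)
      (C.se y (TwBase.mem_tgt hr)) (Iso.refl _) (by simp [jr]) (C.sm_spec q hq).symm
      (by simp) (by simp [jr])

end Chart

end Vale.Agent.P323.Z
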